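import Vale.Agent.Snaky.Sound
import Vale.Agent.Snaky.FData.Cert

namespace Vale.Agent.Snaky.FD

open Vale.Agent.Snaky

theorem ok2 : d2.all (chkPat cert.get) = true := by decide +kernel

theorem ok10 : d10.all (chkPat cert.get) = true := by decide +kernel

theorem ok18 : d18.all (chkPat cert.get) = true := by decide +kernel

theorem ok26 : d26.all (chkPat cert.get) = true := by decide +kernel

theorem ok34 : d34.all (chkPat cert.get) = true := by decide +kernel

theorem ok42 : d42.all (chkPat cert.get) = true := by decide +kernel

theorem ok50 : d50.all (chkPat cert.get) = true := by decide +kernel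

theorem ok58 : d58.all (chkPat cert.get) = true := by decide +kernel

end Vale.Agent.Snaky.FD
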