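import Vale.Agent.Snaky.Sound
import Vale.Agent.Snaky.FData.Cert

namespace Vale.Agent.Snaky.FD

open Vale.Agent.Snaky

theorem ok5 : d5.all (chkPat cert.get) = true := by decide +kernel

theorem ok13 : d13.all (chkPat cert.get) = true := by decide +kernel

theorem ok21 : d21.all (chkPat cert.get) = true := by decide +kernel

theorem ok29 : d29.all (chkPat cert.get) = true := by decide +kernel

theorem ok37 : d37.all (chkPat cert.get) = true := by decide +kernel

theorem ok45 : d45.all (chkPat cert.get) = true := by decide +kernel

theorem ok53 : d53.all (chkPat cert.get) = true := by decide +kernel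

theorem ok61 : d61.all (chkPat cert.get) = true := by decide +kernel

end Vale.Agent.Snaky.FD
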