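import Vale.Agent.Snaky.Sound
import Vale.Agent.Snaky.FData.Cert

namespace Vale.Agent.Snaky.FD

open Vale.Agent.Snaky

theorem ok6 : d6.all (chkPat cert.get) = true := by decide +kernel

theorem ok14 : d14.all (chkPat cert.get) = true := by decide +kernel

theorem ok22 : d22.all (chkPat cert.get) = true := by decide +kernel

theorem ok30 : d30.all (chkPat cert.get) = true := by decide +kernel

theorem ok38 : d38.all (chkPat cert.get) = true := by decide +kernel

theorem ok46 : d46.all (chkPat cert.get) = true := by decide +kernel

theorem ok54 : d54.all (chkPat cert.get) = true := by decide +kernel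

theorem ok62 : d62.all (chkPat cert.get) = true := by decide +kernel

end Vale.Agent.Snaky.FD
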