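import Vale.Agent.Snaky.Sound
import Vale.Agent.Snaky.FData.Cert

namespace Vale.Agent.Snaky.FD

open Vale.Agent.Snaky

theorem ok7 : d7.all (chkPat cert.get) = true := by decide +kernel

theorem ok15 : d15.all (chkPat cert.get) = true := by decide +kernel

theorem ok23 : d23.all (chkPat cert.get) = true := by decide +kernel

theorem ok31 : d31.all (chkPat cert.get) = true := by decide +kernel

theorem ok39 : d39.all (chkPat cert.get) = true := by decide +kernel

theorem ok47 : d47.all (chkPat cert.get) = true := by decide +kernel

theorem ok55 : d55.all (chkPat cert.get) = true := by decide +kernel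

end Vale.Agent.Snaky.FD
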