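import Vale.Agent.Snaky.FData.C0
import Vale.Agent.Snaky.FData.C1
import Vale.Agent.Snaky.FData.C2
import Vale.Agent.Snaky.FData.C3
import Vale.Agent.Snaky.FData.C4
import Vale.Agent.Snaky.FData.C5
import Vale.Agent.Snaky.FData.C6
import Vale.Agent.Snaky.FData.C7
import Vale.Agent.Snaky.Root

namespace Vale.Agent.Snaky.FD

open Vale.Agent.Snaky

theorem cert_ok : cert.all (chkPat cert.get) = true :=
  (Tr.all_node (Tr.all_node (Tr.all_node (Tr.all_node (Tr.all_node (Tr.all_node ok0 ok1) (Tr.all_node ok2 ok3)) (Tr.all_node (Tr.all_node ok4 ok5) (Tr.all_node ok6 ok7))) (Tr.all_node (Tr.all_node (Tr.all_node ok8 ok9) (Tr.all_node ok10 ok11)) (Tr.all_node (Tr.all_node ok12 ok13) (Tr.all_node ok14 ok15)))) (Tr.all_node (Tr.all_node (Tr.all_node (Tr.all_node ok16 ok17) (Tr.all_node ok18 ok19)) (Tr.all_node (Tr.all_node ok20 ok21) (Tr.all_node ok22 ok23))) (Tr.all_node (Tr.all_node (Tr.all_node ok24 ok25) (Tr.all_node ok26 ok27)) (Tr.all_node (Tr.all_node ok28 ok29)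 (Tr.all_node ok30 ok31))))) (Tr.all_node (Tr.all_node (Tr.all_node (Tr.all_node (Tr.all_node ok32 ok33) (Tr.all_node ok34 ok35)) (Tr.all_node (Tr.all_node ok36 ok37) (Tr.all_node ok38 ok39))) (Tr.all_node (Tr.all_node (Tr.all_node ok40 ok41) (Tr.all_node ok42 ok43)) (Tr.all_node (Tr.all_node ok44 ok45) (Tr.all_node ok46 ok47)))) (Tr.all_node (Tr.all_node (Tr.all_node (Tr.all_node ok48 ok49) (Tr.all_node ok50 ok51)) (Tr.all_node (Tr.all_node ok52 ok53) (Tr.all_node ok54 ok55))) (Tr.all_node (Tr.all_node (Tr.all_node ok56 ok57) (Tr.all_node ok58 ok59)) (Tr.all_node (Tr.all_node ok60 ok61) (Tr.all_node ok62 rfl))))))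

/-- the answers to Breaker's first reply -/
def rootT : Ans :=
  (.cons (nat_lit 719) (nat_lit 8) (nat_lit 512) (.cons (nat_lit 750) (nat_lit 9) (nat_lit 512) (.cons (nat_lit 719) (nat_lit 10) (nat_lit 512) (.cons (nat_lit 783) (nat_lit 10) (nat_lit 544) (.cons (nat_lit 719) (nat_lit 11) (nat_lit 512) (.cons (nat_lit 719) (nat_lit 12) (nat_lit 512) .nil))))))

/-- the replies `(x, y)` with `0 ≤ y ≤ x ≤ 16`, `(x, y) ≠ (0, 0)`, that are treated -/
def rootOct : ℕ := 0x80000000c0000000e0000000f0000000f8000000fc000000fe000000ff000000ff800000ffc00000ffe00000fff00000fff80000fffc0000fffe0000ffff0000ffff000000000000000000000000000000000000000000000000000000000000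

theorem root_ok : chkList cert.get (17 + 1) (Nat.shiftLeft (1 <<< oIdx) 512) (Nat.shiftLeft fullMask 512)
    rootT (Nat.shiftLeft rootOct 512) = true := by decide +kernel

end Vale.Agent.Snaky.FD
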