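import Vale.Agent.Snaky.Sound
import Vale.Agent.Snaky.FData.Cert

namespace Vale.Agent.Snaky.FD

open Vale.Agent.Snaky

theorem ok0 : d0.all (chkPat cert.get) = true := by decide +kernel

theorem ok8 : d8.all (chkPat cert.get) = true := by decide +kernel

theorem ok16 : d16.all (chkPat cert.get) = true := by decide +kernel

theorem ok24 : d24.all (chkPat cert.get) = true := by decide +kernel

theorem ok32 : d32.all (chkPat cert.get) = true := by decide +kernel

theorem ok40 : d40.all (chkPat cert.get) = true := by decide +kernel

theorem ok48 : d48.all (chkPat cert.get) = true := by decide +kernel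

theorem ok56 : d56.all (chkPat cert.get) = true := by decide +kernel

end Vale.Agent.Snaky.FD
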